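import Vale.Agent.P037.Main

namespace Vale.Agent.Results.P037.NotPolynomial

open Vale.Agent.P037

theorem result :
    (¬ ∀ k : ℕ, 1 ≤ k → ∀ H : Matrix (Fin k) (Fin k) (Fin 2), ∃ c C : ℝ, 0 < c ∧ 0 < C ∧
      ∀ n : ℕ, 1 ≤ n → ∀ ε : ℝ, 0 < ε → ε < 1 → ∀ A : Matrix (Fin n) (Fin n) (Fin 2),
        ε ≤ distFree H A → c * ε ^ C * (n : ℝ) ^ (2 * k) ≤ (numCopies H A : ℝ)) ∧
    (∀ ε : ℝ, 0 < ε → ε ≤ 1 / 100000 → ∀ n₀ : ℕ, ∃ n : ℕ, n₀ ≤ n ∧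
      ∃ A : Matrix (Fin n) (Fin n) (Fin 2), ε ≤ distFree pattern A ∧
        (numCopies pattern A : ℝ) ≤ (2 : ℝ) ^ (-(1 / (142 * √ε))) * (n : ℝ) ^ 8) := by
  refine ⟨fun h => ?_, quantitative⟩
  obtain ⟨c, C, hc, -, h⟩ := h 4 (by norm_num) pattern
  obtain ⟨n, hn, ε, h0, h1, A, hA, hlt⟩ := not_polynomial c C hc
  exact absurd (h n hn ε h0 h1 A hA) (not_le.2 hlt)

end Vale.Agent.Results.P037.NotPolynomial
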